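import Vale.Agent.P018.Count

namespace Vale.Agent.P018

open Finset Filter Topology

theorem aux_tendsto (s : ℝ) (hs : 0 < s) :
    Tendsto (fun X : ℕ => 12 * ((X : ℝ) ^ (-s) + 3 * (Real.log X / (X : ℝ) ^ s))) atTop (𝓝 0) := by
  have h1 : Tendsto (fun x : ℝ => x ^ (-s)) atTop (𝓝 0) := tendsto_rpow_neg_atTop hs
  have h2 : Tendsto (fun x : ℝ => Real.log x / x ^ s) atTop (𝓝 0) :=
    (isLittleO_log_rpow_atTop hs).tendsto_div_nhds_zero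
  have h3 : Tendsto (fun x : ℝ => 12 * (x ^ (-s) + 3 * (Real.log x / x ^ s))) atTop (𝓝 0) := by
    have := (h1.add (h2.const_mul 3)).const_mul 12
    simpa using this
  exact h3.comp tendsto_natCast_atTop_atTop

open Classical in
/-- primes beyond `X^θ`, `θ > 3/2`, are negligible for `n^4+2` -/
theorem large_primes_negligible (θ : ℝ) (hθ : 3 / 2 < θ) :
    Tendsto (fun X : ℕ => (((Icc 1 X).filter
      (fun n => ∃ p : ℕ, p.Prime ∧ (X : ℝ) ^ θ < p ∧ p ^ 2 ∣ n ^ 4 + 2)).card : ℝ) / X)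
      atTop (𝓝 0) := by
  set s : ℝ := 2 * θ - 3 with hs
  have hs0 : 0 < s := by rw [hs]; linarith
  refine squeeze_zero' (Eventually.of_forall fun X => by positivity) ?_ (aux_tendsto s hs0)
  filter_upwards [eventually_ge_atTop 2] with X hX
  have hX1 : (1 : ℝ) ≤ X := by exact_mod_cast (by omega : 1 ≤ X)
  have hX2 : (2 : ℝ) ≤ X := by exact_mod_cast hX
  have hX0 : (0 : ℝ) < X := by linarith
  set Y : ℕ := ⌊(X : ℝ) ^ θ⌋₊ with hYdef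
  have hpow1 : (2 : ℝ) ≤ (X : ℝ) ^ θ := by
    calc (2 : ℝ) ≤ X := hX2
      _ = (X : ℝ) ^ (1 : ℝ) := (Real.rpow_one _).symm
      _ ≤ (X : ℝ) ^ θ := Real.rpow_le_rpow_of_exponent_le hX1 (by linarith)
  have hYle : (Y : ℝ) ≤ (X : ℝ) ^ θ := Nat.floor_le (by positivity)
  have hYge : (X : ℝ) ^ θ / 2 ≤ Y := by
    have := Nat.lt_floor_add_one ((X : ℝ) ^ θ)
    rw [← hYdef] at this
    linarith
  have hY1 : 1 ≤ Y := by
    have : (1 : ℝ) ≤ Y := by linarith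
    exact_mod_cast this
  have hsub : ((Icc 1 X).filter
      (fun n => ∃ p : ℕ, p.Prime ∧ (X : ℝ) ^ θ < p ∧ p ^ 2 ∣ n ^ 4 + 2)).card
      ≤ ((Icc 1 X).filter (fun n => ∃ y : ℕ, Y < y ∧ y ^ 2 ∣ n ^ 4 + 2)).card := by
    apply Finset.card_le_card
    intro n hn
    rw [Finset.mem_filter] at hn ⊢
    obtain ⟨hn1, p, -, hp, hdiv⟩ := hn
    refine ⟨hn1, p, ?_, hdiv⟩
    have : (Y : ℝ) < p := lt_of_le_of_lt hYle hp
    exact_mod_cast this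
  have hmain := hsub.trans (large_square_divisors X Y hY1)
  have hcast : (((Icc 1 X).filter
      (fun n => ∃ p : ℕ, p.Prime ∧ (X : ℝ) ^ θ < p ∧ p ^ 2 ∣ n ^ 4 + 2)).card : ℝ)
      ≤ (((X ^ 4 + 2) / Y ^ 2 : ℕ) : ℝ) * ((Nat.log 2 (X ^ 2) : ℝ) + 1) := by
    exact_mod_cast hmain
  -- bound the two factors
  set P : ℝ := (X : ℝ) ^ θ with hP
  have hPpos : 0 < P := by positivity
  have hXs : (X : ℝ) ^ s = P ^ 2 / (X : ℝ) ^ 3 := by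
    rw [hs, Real.rpow_sub hX0, mul_comm (2 : ℝ) θ, Real.rpow_mul hX0.le]
    norm_cast
  have hXns : (X : ℝ) ^ (-s) = (X : ℝ) ^ 3 / P ^ 2 := by
    rw [Real.rpow_neg hX0.le, hXs, inv_div]
  have hf1 : (((X ^ 4 + 2) / Y ^ 2 : ℕ) : ℝ) ≤ 12 * (X : ℝ) ^ 4 / P ^ 2 := by
    have h1 : (((X ^ 4 + 2) / Y ^ 2 : ℕ) : ℝ) ≤ ((X ^ 4 + 2 : ℕ) : ℝ) / ((Y ^ 2 : ℕ) : ℝ) :=
      Nat.cast_div_le
    have hYpos : (0 : ℝ) < Y := by linarith
    have h2 : P ^ 2 / 4 ≤ (Y : ℝ) ^ 2 := by nlinarith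
    have h3 : ((X ^ 4 + 2 : ℕ) : ℝ) ≤ 3 * (X : ℝ) ^ 4 := by
      push_cast
      have : (1 : ℝ) ≤ (X : ℝ) ^ 4 := one_le_pow₀ hX1
      linarith
    have hpos : (0 : ℝ) < P ^ 2 / 4 := by positivity
    calc (((X ^ 4 + 2) / Y ^ 2 : ℕ) : ℝ) ≤ ((X ^ 4 + 2 : ℕ) : ℝ) / ((Y ^ 2 : ℕ) : ℝ) := h1
      _ ≤ (3 * (X : ℝ) ^ 4) / (P ^ 2 / 4) := by
          have h2' : P ^ 2 / 4 ≤ ((Y ^ 2 : ℕ) : ℝ) := by push_cast; exact h2
          exact div_le_div₀ (by positivity) h3 hpos h2'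
      _ = 12 * (X : ℝ) ^ 4 / P ^ 2 := by
          field_simp; ring
  have hlogX : 0 ≤ Real.log X := Real.log_nonneg hX1
  have hf2 : ((Nat.log 2 (X ^ 2) : ℝ) + 1) ≤ 1 + 3 * Real.log X := by
    have h1 : (Nat.log 2 (X ^ 2) : ℝ) ≤ Real.logb 2 ((X ^ 2 : ℕ) : ℝ) := Real.natLog_le_logb _ _
    have h2 : Real.logb 2 ((X ^ 2 : ℕ) : ℝ) = 2 * Real.log X / Real.log 2 := by
      rw [Real.logb]; push_cast; rw [Real.log_pow]; norm_num
    have h3 : 2 * Real.log X / Real.log 2 ≤ 3 * Real.log X := by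
      have hl2 : (0.6931471803 : ℝ) < Real.log 2 := Real.log_two_gt_d9
      rw [div_le_iff₀ (by linarith)]
      nlinarith
    linarith
  have hfinal : (((Icc 1 X).filter
      (fun n => ∃ p : ℕ, p.Prime ∧ (X : ℝ) ^ θ < p ∧ p ^ 2 ∣ n ^ 4 + 2)).card : ℝ)
      ≤ (12 * (X : ℝ) ^ 4 / P ^ 2) * (1 + 3 * Real.log X) := by
    refine hcast.trans ?_
    apply mul_le_mul hf1 hf2 (by positivity) (by positivity)
  rw [div_le_iff₀ hX0, hXns, hXs]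
  refine hfinal.trans (le_of_eq ?_)
  field_simp

end Vale.Agent.P018
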