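import Vale.Agent.P018.Pell

namespace Vale.Agent.P018

open Finset

/-- natural-number form of the gap principle for `N = n^2` -/
theorem gap_nat {m n₁ y₁ n₂ y₂ : ℕ} (hn₁ : 0 < n₁) (hlt : n₁ < n₂)
    (h₁ : n₁ ^ 4 + 2 = m * y₁ ^ 2) (h₂ : n₂ ^ 4 + 2 = m * y₂ ^ 2) : 2 * n₁ ^ 2 < n₂ ^ 2 := by
  have hy₁ : 0 < y₁ := by
    rcases Nat.eq_zero_or_pos y₁ with h | h
    · rw [h] at h₁; simp at h₁
    · exact h
  have hy₂ : 0 < y₂ := by
    rcases Nat.eq_zero_or_pos y₂ with h | h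
    · rw [h] at h₂; simp at h₂
    · exact h
  have key := gap (m := (m : ℤ)) (N₁ := ((n₁ : ℤ)) ^ 2) (y₁ := (y₁ : ℤ)) (N₂ := ((n₂ : ℤ)) ^ 2)
    (y₂ := (y₂ : ℤ)) (by positivity)
    (by
      have : n₁ ^ 2 < n₂ ^ 2 := Nat.pow_lt_pow_left hlt (by norm_num)
      exact_mod_cast this)
    (by exact_mod_cast hy₁) (by exact_mod_cast hy₂)
    (by
      have : ((n₁ ^ 4 + 2 : ℕ) : ℤ) = ((m * y₁ ^ 2 : ℕ) : ℤ) := by rw [h₁]
      push_cast at this
      linarith [this, (by ring : ((n₁ : ℤ) ^ 2) ^ 2 = (n₁ : ℤ) ^ 4)])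
    (by
      have : ((n₂ ^ 4 + 2 : ℕ) : ℤ) = ((m * y₂ ^ 2 : ℕ) : ℤ) := by rw [h₂]
      push_cast at this
      linarith [this, (by ring : ((n₂ : ℤ) ^ 2) ^ 2 = (n₂ : ℤ) ^ 4)])
  exact_mod_cast key

open Classical in
/-- The number of `n ≤ X` such that `n^4 + 2` is divisible by the square of an integer `> Y`. -/
theorem large_square_divisors (X Y : ℕ) (hY : 1 ≤ Y) :
    ((Icc 1 X).filter (fun n => ∃ y : ℕ, Y < y ∧ y ^ 2 ∣ n ^ 4 + 2)).card
      ≤ ((X ^ 4 + 2) / Y ^ 2) * (Nat.log 2 (X ^ 2) + 1) := by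
  set A := (Icc 1 X).filter (fun n => ∃ y : ℕ, Y < y ∧ y ^ 2 ∣ n ^ 4 + 2) with hA
  -- choose the cofactor
  have hex : ∀ n ∈ A, ∃ my : ℕ × ℕ, Y < my.2 ∧ n ^ 4 + 2 = my.1 * my.2 ^ 2 := by
    intro n hn
    obtain ⟨-, y, hy, m, hm⟩ := Finset.mem_filter.mp hn
    exact ⟨(m, y), hy, by rw [hm]; ring⟩
  choose! g hg using hex
  have hcard : A.card ≤ ((Icc 1 ((X ^ 4 + 2) / Y ^ 2)) ×ˢ (range (Nat.log 2 (X ^ 2) + 1))).card := by
    apply Finset.card_le_card_of_injOn (fun n => ((g n).1, Nat.log 2 (n ^ 2)))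
    · intro n hn
      have hn' : n ∈ A := hn
      obtain ⟨hY', heq⟩ := hg n hn'
      have hnX : n ≤ X := (Finset.mem_Icc.mp (Finset.mem_filter.mp hn').1).2
      simp only [Finset.coe_product, Set.mem_prod, Finset.mem_coe, Finset.mem_Icc,
        Finset.mem_range]
      refine ⟨⟨?_, ?_⟩, ?_⟩
      · rcases Nat.eq_zero_or_pos (g n).1 with h | h
        · rw [h] at heq; simp at heq
        · exact h
      · rw [Nat.le_div_iff_mul_le (by positivity)]
        calc (g n).1 * Y ^ 2 ≤ (g n).1 * (g n).2 ^ 2 :=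
              Nat.mul_le_mul_left _ (Nat.pow_le_pow_left hY'.le 2)
          _ = n ^ 4 + 2 := heq.symm
          _ ≤ X ^ 4 + 2 := by
              have := Nat.pow_le_pow_left hnX 4
              omega
      · have : Nat.log 2 (n ^ 2) ≤ Nat.log 2 (X ^ 2) := Nat.log_mono_right (Nat.pow_le_pow_left hnX 2)
        omega
    · intro n₁ hn₁ n₂ hn₂ heq
      have hn₁' : n₁ ∈ A := hn₁
      have hn₂' : n₂ ∈ A := hn₂
      simp only [Prod.mk.injEq] at heq
      obtain ⟨hm, hlog⟩ := heq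
      have h1 := (hg n₁ hn₁').2
      have h2 := (hg n₂ hn₂').2
      have p1 : 0 < n₁ := (Finset.mem_Icc.mp (Finset.mem_filter.mp hn₁').1).1
      have p2 : 0 < n₂ := (Finset.mem_Icc.mp (Finset.mem_filter.mp hn₂').1).1
      -- a strict inequality contradicts the gap principle
      have aux : ∀ {a b ya yb m : ℕ}, 0 < a → a < b → a ^ 4 + 2 = m * ya ^ 2 →
          b ^ 4 + 2 = m * yb ^ 2 → Nat.log 2 (a ^ 2) ≠ Nat.log 2 (b ^ 2) := by
        intro a b ya yb m ha hab e1 e2 hl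
        have hgap := gap_nat ha hab e1 e2
        have h3 : Nat.log 2 (a ^ 2 * 2) = Nat.log 2 (a ^ 2) + 1 :=
          Nat.log_mul_base (by norm_num) (by positivity)
        have h4 : Nat.log 2 (a ^ 2 * 2) ≤ Nat.log 2 (b ^ 2) := Nat.log_mono_right (by omega)
        omega
      rcases lt_trichotomy n₁ n₂ with h | h | h
      · exact absurd hlog (aux p1 h h1 (hm ▸ h2))
      · exact h
      · exact absurd hlog.symm (aux p2 h h2 (hm ▸ h1))
  calc A.card ≤ _ := hcard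
    _ = ((X ^ 4 + 2) / Y ^ 2) * (Nat.log 2 (X ^ 2) + 1) := by
      rw [Finset.card_product, Nat.card_Icc, Finset.card_range]
      simp

end Vale.Agent.P018
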