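import Mathlib

namespace Vale.Agent.P018

/-- Gap principle: two distinct positive solutions of `N^2 + 2 = m y^2` differ by a factor `> 2`. -/
theorem gap {m N₁ y₁ N₂ y₂ : ℤ} (hN₁ : 0 < N₁) (hlt : N₁ < N₂) (hy₁ : 0 < y₁) (hy₂ : 0 < y₂)
    (h₁ : N₁ ^ 2 + 2 = m * y₁ ^ 2) (h₂ : N₂ ^ 2 + 2 = m * y₂ ^ 2) : 2 * N₁ < N₂ := by
  have hm : 0 < m := by
    by_contra hm
    have : m * y₁ ^ 2 ≤ 0 := mul_nonpos_of_nonpos_of_nonneg (not_lt.mp hm) (sq_nonneg _)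
    nlinarith [sq_nonneg N₁]
  set a : ℤ := m * y₁ * y₂ - N₁ * N₂ with ha
  set b : ℤ := N₂ * y₁ - N₁ * y₂ with hb
  have hnorm : a ^ 2 = 4 + m * b ^ 2 := by
    have e1 : m * y₁ ^ 2 = N₁ ^ 2 + 2 := h₁.symm
    have e2 : m * y₂ ^ 2 = N₂ ^ 2 + 2 := h₂.symm
    have : a ^ 2 - m * b ^ 2 = (m * y₁ ^ 2 - N₁ ^ 2) * (m * y₂ ^ 2 - N₂ ^ 2) := by
      rw [ha, hb]; ring
    rw [e1, e2] at this
    linarith
  -- `b ≠ 0`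
  have hb0 : b ≠ 0 := by
    intro h0
    have h3 : N₂ * y₁ = N₁ * y₂ := by rw [hb] at h0; linarith
    -- multiply equations
    have h4 : (N₂ * y₁) ^ 2 = (N₁ * y₂) ^ 2 := by rw [h3]
    have h5 : m * (N₂ * y₁) ^ 2 = N₂ ^ 2 * (N₁ ^ 2 + 2) := by rw [h₁]; ring
    have h6 : m * (N₁ * y₂) ^ 2 = N₁ ^ 2 * (N₂ ^ 2 + 2) := by rw [h₂]; ring
    rw [h4, h6] at h5
    have h7 : N₁ ^ 2 = N₂ ^ 2 := by linarith
    nlinarith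
  have hb2 : 1 ≤ b ^ 2 := by
    have : 0 < b ^ 2 := by positivity
    linarith
  have hm2 : 2 ≤ m := by
    by_contra hm2
    have hm1 : m = 1 := by omega
    rw [hm1, one_mul] at h₁
    -- N₁^2 < y₁^2 < (N₁+1)^2
    have h8 : N₁ < y₁ := by nlinarith
    have h9 : y₁ < N₁ + 1 := by nlinarith
    omega
  have ha2 : 6 ≤ a ^ 2 := by nlinarith
  -- `a > 0`
  have hprod : (N₁ * N₂ + a) ^ 2 = (N₁ ^ 2 + 2) * (N₂ ^ 2 + 2) := by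
    rw [h₁, h₂, ha]; ring
  have hapos : 0 < a := by
    by_contra hneg
    have hle : a ≤ 0 := not_lt.mp hneg
    have hmy : 0 < m * y₁ * y₂ := mul_pos (mul_pos hm hy₁) hy₂
    have h10 : 0 < N₁ * N₂ + a := by rw [ha]; linarith
    have h11 : N₁ * N₂ + a ≤ N₁ * N₂ := by linarith
    have h12 : (N₁ * N₂ + a) ^ 2 ≤ (N₁ * N₂) ^ 2 := by
      apply pow_le_pow_left₀ h10.le h11
    nlinarith [sq_nonneg N₁, sq_nonneg N₂]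
  have ha3 : 3 ≤ a := by
    by_contra h
    have : a ≤ 2 := by omega
    nlinarith
  -- 2 a N₁ N₂ + a^2 = 2 N₁^2 + 2 N₂^2 + 4
  have hkey : 2 * a * (N₁ * N₂) + a ^ 2 = 2 * N₁ ^ 2 + 2 * N₂ ^ 2 + 4 := by nlinarith
  have hNN : 0 < N₁ * N₂ := mul_pos hN₁ (hN₁.trans hlt)
  have h13 : 6 * (N₁ * N₂) + 9 ≤ 2 * N₁ ^ 2 + 2 * N₂ ^ 2 + 4 := by nlinarith
  by_contra hcon
  have hle : N₂ ≤ 2 * N₁ := not_lt.mp hcon
  -- N₁ < N₂ ≤ 2 N₁ gives (N₂ - N₁)(N₂ - 2 N₁) ≤ 0, i.e. N₂^2 - 3 N₁ N₂ + 2 N₁^2 ≤ 0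
  nlinarith [mul_nonneg (sub_nonneg.mpr hlt.le) (sub_nonneg.mpr hle)]

end Vale.Agent.P018
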